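import Vale.Agent.P254.Final

namespace Vale.Agent.Results.P254.FewVertices

open Vale.Agent.P254

/-- Strong isotropic constant conjecture, with its equality case, for every convex polytope in
`ℝ^n` that is the convex hull of at most `n+2` points. -/
theorem result (n : ℕ) (hn : 1 ≤ n) (p : Fin (n + 2) → (Fin n → ℝ))
    (hp : (interior (convexHull ℝ (Set.range p))).Nonempty)
    (S : Set (Fin n → ℝ)) (hS : IsSimplex S) :
    isoConst (convexHull ℝ (Set.range p)) ≤ isoConst S ∧
      (isoConst (convexHull ℝ (Set.range p)) = isoConst S ↔
        IsSimplex (convexHull ℝ (Set.range p))) :=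
  few_vertices n hn p hp S hS

end Vale.Agent.Results.P254.FewVertices
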