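import Vale.Agent.Results.P254.FewVertices

namespace Vale.Agent.Results.P254.G_InequalityOnly

open Vale.Agent.P254

/-- The isotropic constant of a convex polytope in `ℝ^n` spanned by at most `n + 2` points is at
most the isotropic constant of a simplex. -/
theorem result : ∀ (n : ℕ), 1 ≤ n → ∀ p : Fin (n + 2) → (Fin n → ℝ),
    (interior (convexHull ℝ (Set.range p))).Nonempty →
    ∀ S : Set (Fin n → ℝ), IsSimplex S →
      isoConst (convexHull ℝ (Set.range p)) ≤ isoConst S :=
  fun n hn p hp S hS => (Vale.Agent.Results.P254.FewVertices.result n hn p hp S hS).1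

end Vale.Agent.Results.P254.G_InequalityOnly
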